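import Mathlib

/-!
# The Snaky achievement game on the plane: definitions

Plain definitions of the game, as in the problem file.
-/

namespace Vale.Agent.P062

/-- A cell of the square grid, indexed by its lower-left corner. -/
abbrev Cell := ℤ × ℤ

/-- The hexomino Snaky `S = {(0,0),(1,0),(2,0),(3,0),(3,1),(4,1)}`. -/
def snaky : Finset Cell := {(0, 0), (1, 0), (2, 0), (3, 0), (3, 1), (4, 1)}

/-- The eight `2 × 2` signed permutation matrices `[[a, b], [c, d]]`, written as `(a, b, c, d)`. -/
def signedPerms : Finset (ℤ × ℤ × ℤ × ℤ) :=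
  {(1, 0, 0, 1), (-1, 0, 0, 1), (1, 0, 0, -1), (-1, 0, 0, -1),
   (0, 1, 1, 0), (0, -1, 1, 0), (0, 1, -1, 0), (0, -1, -1, 0)}

/-- `A` is an allowed copy of Snaky: `A = t + R(S)` for a translation `t` and a signed
permutation matrix `R = [[a, b], [c, d]]`, acting by `(x, y) ↦ (a x + b y, c x + d y)`. -/
def IsCopy (A : Finset Cell) : Prop :=
  ∃ R ∈ signedPerms, ∃ t : Cell,
    A = snaky.image fun p => (R.1 * p.1 + R.2.1 * p.2 + t.1, R.2.2.1 * p.1 + R.2.2.2 * p.2 + t.2)

/-- `MakerWinsIn n M B`: with Maker to move, Maker owning the cells `M` and Breaker owning the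
cells `B`, Maker can force a win within `n` further turns of its own. That is, `n` is positive and
Maker can claim an unclaimed cell `c` such that either Maker then owns every cell of an allowed
copy, or, for every unclaimed cell `b` that Breaker claims next, Maker can force a win within
`n - 1` further turns. -/
def MakerWinsIn : ℕ → Finset Cell → Finset Cell → Prop
  | 0, _, _ => False
  | n + 1, M, B =>
    ∃ c, c ∉ M ∧ c ∉ B ∧
      ((∃ A, IsCopy A ∧ A ⊆ insert c M) ∨
        ∀ b, b ∉ insert c M → b ∉ B → MakerWinsIn n (insert c M) (insert b B))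

end Vale.Agent.P062
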