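import Vale.Agent.P062.Sound

/-!
# Partial form: all first replies of Breaker except the orthogonal neighbours of Maker's cell
-/

namespace Vale.Agent.P062

/-- No bit of `I` lies in the cone `0 ≤ y ≤ x`, `x ≥ 1`, except possibly the bit of `(1, 0)`. -/
def coneFreeNo10 (I : ℕ) : Bool :=
  Nat.blt I (Nat.shiftLeft 1 289) &&
    (List.range 289).all fun i => !(I.testBit i && (inCone 1 i && !(Nat.beq i 145)))

theorem near_replies_of_holds (K I U : ℕ) (h : Holds K (Nat.shiftLeft 1 144) I U)
    (hI : coneFreeNo10 I = true) :
    ∀ b : Cell, 2 ≤ |b.1| + |b.2| → MakerWinsIn K {((0 : ℤ), (0 : ℤ))} {b} := by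
  refine first_reply_reduction K (fun b => 2 ≤ |b.1| + |b.2|) ?_ ?_ ?_
  · rintro ⟨x, y⟩ hp
    simp only [swapC] at hp ⊢
    omega
  · rintro ⟨x, y⟩ hp
    simpa [negX] using hp
  · intro x y hy hyx hp
    have h1 : |x| = x := abs_of_nonneg (le_trans hy hyx)
    have h2 : |y| = y := abs_of_nonneg hy
    simp only [h1, h2] at hp
    have hb : (x, y) ∉ cells I := by
      intro hmem
      obtain ⟨i, hi, hc⟩ := mem_cells.1 hmem
      simp only [coneFreeNo10, Bool.and_eq_true, List.all_eq_true, List.mem_range] at hI
      obtain ⟨hlt, hall⟩ := hI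
      have hlt' : I < 2 ^ 289 := by
        have h1 : I < Nat.shiftLeft 1 289 := Nat.le_of_ble_eq_true hlt
        have h2 : Nat.shiftLeft 1 289 = 2 ^ 289 := Nat.one_shiftLeft 289
        rwa [h2] at h1
      have hi289 : i < 289 := by
        by_contra hge
        have : I < 2 ^ i := lt_of_lt_of_le hlt' (Nat.pow_le_pow_right (by norm_num) (by omega))
        have h0 := Nat.testBit_lt_two_pow this
        rw [h0] at hi
        exact absurd hi (by simp)
      have h1 := hall i hi289
      rw [hi] at h1
      simp only [Bool.true_and, Bool.not_eq_true', inCone, Bool.and_eq_false_iff,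
        Bool.not_eq_false'] at h1
      simp only [cellOf, Prod.mk.injEq] at hc
      obtain ⟨hc1, hc2⟩ := hc
      rcases h1 with ((h1 | h1) | h1) | h1
      · have : ¬ (8 ≤ i / 17) := fun hh => by
          rw [Nat.ble_eq_true_of_le hh] at h1
          exact absurd h1 (by simp)
        omega
      · have : ¬ (i / 17 ≤ i % 17) := fun hh => by
          rw [Nat.ble_eq_true_of_le hh] at h1
          exact absurd h1 (by simp)
        omega
      · have : ¬ (8 + 1 ≤ i % 17) := fun hh => by
          rw [Nat.ble_eq_true_of_le hh] at h1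
          exact absurd h1 (by simp)
        omega
      · have : i = 145 := Nat.eq_of_beq_eq_true h1
        subst this
        omega
    obtain ⟨Z, _, hZ2, hZ3⟩ := h _ hb
    have := hZ3 {(x, y)} (by simpa using hZ2) (by
      rw [cells_origin]
      simp only [Finset.disjoint_singleton_left, Finset.mem_singleton, Prod.mk.injEq]
      omega)
    rwa [cells_origin] at this

end Vale.Agent.P062
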