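import Vale.Agent.P062.Partial

/-!
# Reduction of the full game to the one position left open
-/

namespace Vale.Agent.P062

theorem MakerWinsIn.mono : ∀ {m n : ℕ} {M B : Finset Cell}, m ≤ n →
    MakerWinsIn m M B → MakerWinsIn n M B
  | 0, _, _, _, _, h => h.elim
  | m + 1, n, M, B, hmn, h => by
    obtain ⟨k, rfl⟩ : ∃ k, n = k + 1 := ⟨n - 1, by omega⟩
    obtain ⟨c, hc1, hc2, hc3⟩ := h
    refine ⟨c, hc1, hc2, ?_⟩
    rcases hc3 with hw | hall
    · exact Or.inl hw
    · exact Or.inr fun b hb1 hb2 => MakerWinsIn.mono (by omega) (hall b hb1 hb2)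

/-- If Maker wins every second reply after `(1,0)`, `(0,1)` (within `N` turns), and wins after all
first replies with `|x| + |y| ≥ 2`, Maker wins the whole game. -/
theorem win_of_levels (N : ℕ)
    (hnear : ∀ b : Cell, 2 ≤ |b.1| + |b.2| → MakerWinsIn N {((0 : ℤ), (0 : ℤ))} {b})
    (hsecond : ∀ b : Cell, b ≠ (0, 0) → b ≠ (0, 1) → b ≠ (1, 0) →
      MakerWinsIn N {((0 : ℤ), (0 : ℤ)), (0, 1)} {(1, 0), b}) :
    MakerWinsIn (N + 2) ∅ ∅ := by
  have hall := first_reply_reduction (N + 1) (fun b => b ≠ ((0 : ℤ), (0 : ℤ)))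
    (by
      rintro ⟨x, y⟩ hp h0
      apply hp
      simp only [swapC, Prod.mk.injEq] at h0 ⊢
      exact ⟨h0.2, h0.1⟩)
    (by
      rintro ⟨x, y⟩ hp h0
      apply hp
      simp only [negX, Prod.mk.injEq] at h0 ⊢
      exact ⟨by omega, h0.2⟩)
    (by
      intro x y hy hyx hne
      by_cases h10 : (x, y) = ((1 : ℤ), (0 : ℤ))
      · rw [h10]
        refine ⟨(0, 1), by simp, by simp, Or.inr ?_⟩
        intro b hb1 hb2
        have hb1' : b ≠ ((0 : ℤ), (1 : ℤ)) ∧ b ≠ ((0 : ℤ), (0 : ℤ)) := by
          simpa using hb1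
        have hb2' : b ≠ ((1 : ℤ), (0 : ℤ)) := by simpa using hb2
        have h := hsecond b hb1'.2 hb1'.1 hb2'
        have e1 : insert ((0 : ℤ), (1 : ℤ)) ({((0 : ℤ), (0 : ℤ))} : Finset Cell)
            = {((0 : ℤ), (0 : ℤ)), (0, 1)} := by
          ext p; simp only [Finset.mem_insert, Finset.mem_singleton]; tauto
        have e2 : insert b ({((1 : ℤ), (0 : ℤ))} : Finset Cell) = {(1, 0), b} := by
          ext p; simp only [Finset.mem_insert, Finset.mem_singleton]; tauto
        rw [e1, e2]
        exact h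
      · have h2 : 2 ≤ |x| + |y| := by
          have h1 : |x| = x := abs_of_nonneg (le_trans hy hyx)
          have h3 : |y| = y := abs_of_nonneg hy
          rw [h1, h3]
          simp only [ne_eq, Prod.mk.injEq, not_and] at hne h10
          by_contra hlt
          have hx : x = 0 ∨ x = 1 := by omega
          rcases hx with rfl | rfl
          · have : y = 0 := by omega
            exact hne rfl this
          · have : y = 0 := by omega
            exact h10 rfl this
        exact MakerWinsIn.mono (by omega) (hnear (x, y) (by simpa using h2)))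
  refine ⟨(0, 0), by simp, by simp, Or.inr ?_⟩
  intro b hb _
  have : insert ((0 : ℤ), (0 : ℤ)) (∅ : Finset Cell) = {((0 : ℤ), (0 : ℤ))} := rfl
  rw [this] at hb ⊢
  have hne : b ≠ (0, 0) := by simpa using hb
  have h' := hall b hne
  have h2 : insert b (∅ : Finset Cell) = {b} := rfl
  rw [h2]
  exact h'

/-- The base position `{(0,0),(0,1)}` as a bit mask. -/
theorem cells_base : cells (Nat.lor (Nat.shiftLeft 1 144) (Nat.shiftLeft 1 161))
    = {((0 : ℤ), (0 : ℤ)), (0, 1)} := by
  rw [cells_lor_bit, cells_origin]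
  have : cellOf 161 = ((0 : ℤ), (1 : ℤ)) := by
    simp only [cellOf, Prod.mk.injEq]
    constructor <;> norm_num
  rw [this]
  ext p
  simp only [Finset.mem_insert, Finset.mem_singleton]
  tauto

/-- From a `Holds` fact at the base position `{(0,0),(0,1)}`: Breaker's replies outside `I` lose
(with Breaker also at `(1,0)`), provided the union of zones avoids `(1,0)`. -/
theorem second_level_of_holds (K M I U : ℕ) (h : Holds K M I U)
    (hM : M = Nat.lor (Nat.shiftLeft 1 144) (Nat.shiftLeft 1 161))
    (hU : U.testBit 145 = false) :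
    ∀ b : Cell, b ∉ cells I → b ≠ (0, 0) → b ≠ (0, 1) → b ≠ (1, 0) →
      MakerWinsIn K {((0 : ℤ), (0 : ℤ)), (0, 1)} {(1, 0), b} := by
  intro b hb h00 h01 h10
  obtain ⟨Z, hZU, hbZ, hZ⟩ := h b hb
  subst hM
  have h145 : cellOf 145 = ((1 : ℤ), (0 : ℤ)) := by
    simp only [cellOf, Prod.mk.injEq]
    constructor <;> norm_num
  have hU' : ((1 : ℤ), (0 : ℤ)) ∉ cells U := by
    rw [← h145, cellOf_mem_cells, hU]
    simp
  have := hZ {(1, 0), b} (by
      rw [Finset.disjoint_left]
      intro p hp hp2
      simp only [Finset.mem_insert, Finset.mem_singleton] at hp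
      rcases hp with rfl | rfl
      · exact hU' (hZU hp2)
      · exact hbZ hp2) (by
      rw [cells_base, Finset.disjoint_left]
      intro p hp hp2
      simp only [Finset.mem_insert, Finset.mem_singleton] at hp hp2
      rcases hp with rfl | rfl
      · rcases hp2 with hp2 | hp2 <;> simp [Prod.ext_iff] at hp2
      · rcases hp2 with hp2 | hp2
        · exact h00 hp2
        · exact h01 hp2)
  rwa [cells_base] at this

end Vale.Agent.P062
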