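import Vale.Agent.P062.Defs

/-!
# Reflection checker for zone-proofs of Maker wins, and its soundness
-/

namespace Vale.Agent.P062

/-- The cell with bit index `i` in the 17 × 17 window centred at the origin
(the index formula is injective on all of ℕ). -/
def cellOf (i : ℕ) : Cell := (((i % 17 : ℕ) : ℤ) - 8, ((i / 17 : ℕ) : ℤ) - 8)

theorem cellOf_inj {i j : ℕ} (h : cellOf i = cellOf j) : i = j := by
  simp only [cellOf, Prod.mk.injEq] at h
  omega

/-- The finite set of cells whose bit is set in `m`. -/
noncomputable def cells (m : ℕ) : Finset Cell :=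
  ((Finset.range (m + 1)).filter fun i => m.testBit i = true).image cellOf

theorem mem_cells {m : ℕ} {p : Cell} : p ∈ cells m ↔ ∃ i, m.testBit i = true ∧ cellOf i = p := by
  simp only [cells, Finset.mem_image, Finset.mem_filter, Finset.mem_range]
  constructor
  · rintro ⟨i, ⟨_, h⟩, rfl⟩
    exact ⟨i, h, rfl⟩
  · rintro ⟨i, h, rfl⟩
    refine ⟨i, ⟨?_, h⟩, rfl⟩
    have h1 := Nat.ge_two_pow_of_testBit h
    have h2 : i < 2 ^ i := Nat.lt_two_pow_self
    omega

theorem cellOf_mem_cells {m i : ℕ} : cellOf i ∈ cells m ↔ m.testBit i = true := by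
  rw [mem_cells]
  constructor
  · rintro ⟨j, hj, h⟩
    rwa [← cellOf_inj h]
  · intro h
    exact ⟨i, h, rfl⟩

theorem testBit_oneShift (c i : ℕ) : (Nat.shiftLeft 1 c).testBit i = decide (c = i) := by
  have : Nat.shiftLeft 1 c = 2 ^ c := Nat.one_shiftLeft c
  rw [this, Nat.testBit_two_pow]

theorem cells_lor_bit (M c : ℕ) : cells (Nat.lor M (Nat.shiftLeft 1 c)) = insert (cellOf c) (cells M) := by
  ext p
  rw [Finset.mem_insert, mem_cells, mem_cells]
  constructor
  · rintro ⟨i, hi, rfl⟩
    have : (M ||| Nat.shiftLeft 1 c).testBit i = true := hi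
    rw [Nat.testBit_or, testBit_oneShift] at this
    simp only [Bool.or_eq_true, decide_eq_true_eq] at this
    rcases this with h | h
    · exact Or.inr ⟨i, h, rfl⟩
    · exact Or.inl (by rw [h])
  · rintro (rfl | ⟨i, hi, rfl⟩)
    · refine ⟨c, ?_, rfl⟩
      change (M ||| Nat.shiftLeft 1 c).testBit c = true
      rw [Nat.testBit_or, testBit_oneShift]
      simp
    · refine ⟨i, ?_, rfl⟩
      change (M ||| Nat.shiftLeft 1 c).testBit i = true
      rw [Nat.testBit_or, hi]
      simp

theorem mem_cells_lor {a b : ℕ} {p : Cell} : p ∈ cells (Nat.lor a b) ↔ p ∈ cells a ∨ p ∈ cells b := by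
  simp only [mem_cells]
  constructor
  · rintro ⟨i, hi, rfl⟩
    have : (a ||| b).testBit i = true := hi
    rw [Nat.testBit_or] at this
    simp only [Bool.or_eq_true] at this
    rcases this with h | h
    · exact Or.inl ⟨i, h, rfl⟩
    · exact Or.inr ⟨i, h, rfl⟩
  · rintro (⟨i, hi, rfl⟩ | ⟨i, hi, rfl⟩)
    · refine ⟨i, ?_, rfl⟩
      change (a ||| b).testBit i = true
      rw [Nat.testBit_or, hi]
      simp
    · refine ⟨i, ?_, rfl⟩
      change (a ||| b).testBit i = true
      rw [Nat.testBit_or, hi]
      simp

theorem mem_cells_land {a b : ℕ} {p : Cell} : p ∈ cells (Nat.land a b) ↔ p ∈ cells a ∧ p ∈ cells b := by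
  simp only [mem_cells]
  constructor
  · rintro ⟨i, hi, rfl⟩
    have : (a &&& b).testBit i = true := hi
    rw [Nat.testBit_and] at this
    simp only [Bool.and_eq_true] at this
    exact ⟨⟨i, this.1, rfl⟩, ⟨i, this.2, rfl⟩⟩
  · rintro ⟨⟨i, hi, rfl⟩, ⟨j, hj, h⟩⟩
    have := cellOf_inj h
    subst this
    refine ⟨j, ?_, rfl⟩
    change (a &&& b).testBit j = true
    rw [Nat.testBit_and, hi, hj]
    rfl

/-- The zone semantics: whatever finite set `B` of cells Breaker owns, if `B` avoids the
zone `Z` and Maker's cells `M`, then Maker (to move) wins within `k` turns. -/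
def OrP (k M Z : ℕ) : Prop :=
  ∀ B : Finset Cell, Disjoint B (cells Z) → Disjoint B (cells M) → MakerWinsIn k (cells M) B

/-- Bit mask of the normalised shape of orientation `r`. -/
def shapeMask : ℕ → ℕ
  | 0 => 3145743
  | 1 => 393246
  | 2 => 1966104
  | 3 => 3932163
  | 4 => 590302565775326707713
  | 5 => 295154660613153882114
  | 6 => 295150156996346773506
  | _ => 590300313992693153793

/-- Largest `x`-offset of the normalised shape of orientation `r`. -/
def shapeWidth : ℕ → ℕ
  | 0 => 4
  | 1 => 4
  | 2 => 4
  | 3 => 4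
  | _ => 1

/-- The side conditions of a `win` step, as a Boolean. -/
def winOK (M c r s : ℕ) : Bool :=
  Nat.blt r 8 && Nat.blt (s % 17 + shapeWidth r) 17 && Nat.beq (Nat.land (Nat.shiftLeft 1 c) M) 0 &&
    (let L := Nat.shiftLeft (shapeMask r) s
     Nat.beq (Nat.land L (Nat.lor M (Nat.shiftLeft 1 c))) L)

theorem cellOf_add (e s ex ey : ℕ) (he : e = ey * 17 + ex) (hx : ex + s % 17 < 17) :
    cellOf (e + s) = ((ex : ℤ) + ((s % 17 : ℕ) : ℤ) - 8, (ey : ℤ) + ((s / 17 : ℕ) : ℤ) - 8) := by
  simp only [cellOf, Prod.mk.injEq]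
  constructor <;> omega

theorem testBit_shape {m e s : ℕ} (h : m.testBit e = true) :
    (Nat.shiftLeft m s).testBit (e + s) = true := by
  have : Nat.shiftLeft m s = m <<< s := rfl
  rw [this, Nat.testBit_shiftLeft]
  simp [h]

/-- From a successful `win` check: the copy lies in `M ∪ {c}`. -/
theorem exists_copy {M c r s : ℕ} (h : winOK M c r s = true) :
    ∃ A, IsCopy A ∧ A ⊆ cells (Nat.lor M (Nat.shiftLeft 1 c)) := by
  simp only [winOK, Bool.and_eq_true] at h
  obtain ⟨⟨⟨hr, hs⟩, _⟩, hL⟩ := h
  have hr' : r < 8 := Nat.le_of_ble_eq_true hr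
  have hs' : s % 17 + shapeWidth r < 17 := Nat.le_of_ble_eq_true hs
  have hL' := Nat.eq_of_beq_eq_true hL
  -- every bit of the shifted shape is a bit of M ∪ {c}
  have key : ∀ e, (shapeMask r).testBit e = true →
      cellOf (e + s) ∈ cells (Nat.lor M (Nat.shiftLeft 1 c)) := by
    intro e he
    rw [cellOf_mem_cells]
    have h1 : (Nat.shiftLeft (shapeMask r) s).testBit (e + s) = true := testBit_shape he
    rw [← hL'] at h1
    have h2 : (Nat.shiftLeft (shapeMask r) s &&& Nat.lor M (Nat.shiftLeft 1 c)).testBit (e + s) = true := h1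
    rw [Nat.testBit_and] at h2
    simp only [Bool.and_eq_true] at h2
    exact h2.2
  interval_cases r
  · refine ⟨_, ⟨(1, 0, 0, 1), by decide, (0 + ((s % 17 : ℕ) : ℤ) - 8, 0 + ((s / 17 : ℕ) : ℤ) - 8), rfl⟩, ?_⟩
    intro p hp
    simp only [snaky, Finset.mem_image, Finset.mem_insert, Finset.mem_singleton] at hp
    obtain ⟨q, hq, rfl⟩ := hp
    rcases hq with rfl | rfl | rfl | rfl | rfl | rfl
    · have h := key 0 (by decide)
      rw [cellOf_add 0 s 0 0 rfl (by simp only [shapeWidth] at hs'; omega)] at h
      convert h using 2 <;> simp <;> ring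
    · have h := key 1 (by decide)
      rw [cellOf_add 1 s 1 0 rfl (by simp only [shapeWidth] at hs'; omega)] at h
      convert h using 2 <;> simp <;> ring
    · have h := key 2 (by decide)
      rw [cellOf_add 2 s 2 0 rfl (by simp only [shapeWidth] at hs'; omega)] at h
      convert h using 2 <;> simp <;> ring
    · have h := key 3 (by decide)
      rw [cellOf_add 3 s 3 0 rfl (by simp only [shapeWidth] at hs'; omega)] at h
      convert h using 2 <;> simp <;> ring
    · have h := key 20 (by decide)
      rw [cellOf_add 20 s 3 1 rfl (by simp only [shapeWidth] at hs'; omega)] at h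
      convert h using 2 <;> simp <;> ring
    · have h := key 21 (by decide)
      rw [cellOf_add 21 s 4 1 rfl (by simp only [shapeWidth] at hs'; omega)] at h
      convert h using 2 <;> simp <;> ring
  · refine ⟨_, ⟨(-1, 0, 0, 1), by decide, (4 + ((s % 17 : ℕ) : ℤ) - 8, 0 + ((s / 17 : ℕ) : ℤ) - 8), rfl⟩, ?_⟩
    intro p hp
    simp only [snaky, Finset.mem_image, Finset.mem_insert, Finset.mem_singleton] at hp
    obtain ⟨q, hq, rfl⟩ := hp
    rcases hq with rfl | rfl | rfl | rfl | rfl | rfl
    · have h := key 4 (by decide)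
      rw [cellOf_add 4 s 4 0 rfl (by simp only [shapeWidth] at hs'; omega)] at h
      convert h using 2 <;> simp <;> ring
    · have h := key 3 (by decide)
      rw [cellOf_add 3 s 3 0 rfl (by simp only [shapeWidth] at hs'; omega)] at h
      convert h using 2 <;> simp <;> ring
    · have h := key 2 (by decide)
      rw [cellOf_add 2 s 2 0 rfl (by simp only [shapeWidth] at hs'; omega)] at h
      convert h using 2 <;> simp <;> ring
    · have h := key 1 (by decide)
      rw [cellOf_add 1 s 1 0 rfl (by simp only [shapeWidth] at hs'; omega)] at h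
      convert h using 2 <;> simp <;> ring
    · have h := key 18 (by decide)
      rw [cellOf_add 18 s 1 1 rfl (by simp only [shapeWidth] at hs'; omega)] at h
      convert h using 2 <;> simp <;> ring
    · have h := key 17 (by decide)
      rw [cellOf_add 17 s 0 1 rfl (by simp only [shapeWidth] at hs'; omega)] at h
      convert h using 2 <;> simp <;> ring
  · refine ⟨_, ⟨(1, 0, 0, -1), by decide, (0 + ((s % 17 : ℕ) : ℤ) - 8, 1 + ((s / 17 : ℕ) : ℤ) - 8), rfl⟩, ?_⟩
    intro p hp
    simp only [snaky, Finset.mem_image, Finset.mem_insert, Finset.mem_singleton] at hp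
    obtain ⟨q, hq, rfl⟩ := hp
    rcases hq with rfl | rfl | rfl | rfl | rfl | rfl
    · have h := key 17 (by decide)
      rw [cellOf_add 17 s 0 1 rfl (by simp only [shapeWidth] at hs'; omega)] at h
      convert h using 2 <;> simp <;> ring
    · have h := key 18 (by decide)
      rw [cellOf_add 18 s 1 1 rfl (by simp only [shapeWidth] at hs'; omega)] at h
      convert h using 2 <;> simp <;> ring
    · have h := key 19 (by decide)
      rw [cellOf_add 19 s 2 1 rfl (by simp only [shapeWidth] at hs'; omega)] at h
      convert h using 2 <;> simp <;> ring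
    · have h := key 20 (by decide)
      rw [cellOf_add 20 s 3 1 rfl (by simp only [shapeWidth] at hs'; omega)] at h
      convert h using 2 <;> simp <;> ring
    · have h := key 3 (by decide)
      rw [cellOf_add 3 s 3 0 rfl (by simp only [shapeWidth] at hs'; omega)] at h
      convert h using 2 <;> simp <;> ring
    · have h := key 4 (by decide)
      rw [cellOf_add 4 s 4 0 rfl (by simp only [shapeWidth] at hs'; omega)] at h
      convert h using 2 <;> simp <;> ring
  · refine ⟨_, ⟨(-1, 0, 0, -1), by decide, (4 + ((s % 17 : ℕ) : ℤ) - 8, 1 + ((s / 17 : ℕ) : ℤ) - 8), rfl⟩, ?_⟩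
    intro p hp
    simp only [snaky, Finset.mem_image, Finset.mem_insert, Finset.mem_singleton] at hp
    obtain ⟨q, hq, rfl⟩ := hp
    rcases hq with rfl | rfl | rfl | rfl | rfl | rfl
    · have h := key 21 (by decide)
      rw [cellOf_add 21 s 4 1 rfl (by simp only [shapeWidth] at hs'; omega)] at h
      convert h using 2 <;> simp <;> ring
    · have h := key 20 (by decide)
      rw [cellOf_add 20 s 3 1 rfl (by simp only [shapeWidth] at hs'; omega)] at h
      convert h using 2 <;> simp <;> ring
    · have h := key 19 (by decide)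
      rw [cellOf_add 19 s 2 1 rfl (by simp only [shapeWidth] at hs'; omega)] at h
      convert h using 2 <;> simp <;> ring
    · have h := key 18 (by decide)
      rw [cellOf_add 18 s 1 1 rfl (by simp only [shapeWidth] at hs'; omega)] at h
      convert h using 2 <;> simp <;> ring
    · have h := key 1 (by decide)
      rw [cellOf_add 1 s 1 0 rfl (by simp only [shapeWidth] at hs'; omega)] at h
      convert h using 2 <;> simp <;> ring
    · have h := key 0 (by decide)
      rw [cellOf_add 0 s 0 0 rfl (by simp only [shapeWidth] at hs'; omega)] at h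
      convert h using 2 <;> simp <;> ring
  · refine ⟨_, ⟨(0, 1, 1, 0), by decide, (0 + ((s % 17 : ℕ) : ℤ) - 8, 0 + ((s / 17 : ℕ) : ℤ) - 8), rfl⟩, ?_⟩
    intro p hp
    simp only [snaky, Finset.mem_image, Finset.mem_insert, Finset.mem_singleton] at hp
    obtain ⟨q, hq, rfl⟩ := hp
    rcases hq with rfl | rfl | rfl | rfl | rfl | rfl
    · have h := key 0 (by decide)
      rw [cellOf_add 0 s 0 0 rfl (by simp only [shapeWidth] at hs'; omega)] at h
      convert h using 2 <;> simp <;> ring
    · have h := key 17 (by decide)
      rw [cellOf_add 17 s 0 1 rfl (by simp only [shapeWidth] at hs'; omega)] at h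
      convert h using 2 <;> simp <;> ring
    · have h := key 34 (by decide)
      rw [cellOf_add 34 s 0 2 rfl (by simp only [shapeWidth] at hs'; omega)] at h
      convert h using 2 <;> simp <;> ring
    · have h := key 51 (by decide)
      rw [cellOf_add 51 s 0 3 rfl (by simp only [shapeWidth] at hs'; omega)] at h
      convert h using 2 <;> simp <;> ring
    · have h := key 52 (by decide)
      rw [cellOf_add 52 s 1 3 rfl (by simp only [shapeWidth] at hs'; omega)] at h
      convert h using 2 <;> simp <;> ring
    · have h := key 69 (by decide)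
      rw [cellOf_add 69 s 1 4 rfl (by simp only [shapeWidth] at hs'; omega)] at h
      convert h using 2 <;> simp <;> ring
  · refine ⟨_, ⟨(0, -1, 1, 0), by decide, (1 + ((s % 17 : ℕ) : ℤ) - 8, 0 + ((s / 17 : ℕ) : ℤ) - 8), rfl⟩, ?_⟩
    intro p hp
    simp only [snaky, Finset.mem_image, Finset.mem_insert, Finset.mem_singleton] at hp
    obtain ⟨q, hq, rfl⟩ := hp
    rcases hq with rfl | rfl | rfl | rfl | rfl | rfl
    · have h := key 1 (by decide)
      rw [cellOf_add 1 s 1 0 rfl (by simp only [shapeWidth] at hs'; omega)] at h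
      convert h using 2 <;> simp <;> ring
    · have h := key 18 (by decide)
      rw [cellOf_add 18 s 1 1 rfl (by simp only [shapeWidth] at hs'; omega)] at h
      convert h using 2 <;> simp <;> ring
    · have h := key 35 (by decide)
      rw [cellOf_add 35 s 1 2 rfl (by simp only [shapeWidth] at hs'; omega)] at h
      convert h using 2 <;> simp <;> ring
    · have h := key 52 (by decide)
      rw [cellOf_add 52 s 1 3 rfl (by simp only [shapeWidth] at hs'; omega)] at h
      convert h using 2 <;> simp <;> ring
    · have h := key 51 (by decide)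
      rw [cellOf_add 51 s 0 3 rfl (by simp only [shapeWidth] at hs'; omega)] at h
      convert h using 2 <;> simp <;> ring
    · have h := key 68 (by decide)
      rw [cellOf_add 68 s 0 4 rfl (by simp only [shapeWidth] at hs'; omega)] at h
      convert h using 2 <;> simp <;> ring
  · refine ⟨_, ⟨(0, 1, -1, 0), by decide, (0 + ((s % 17 : ℕ) : ℤ) - 8, 4 + ((s / 17 : ℕ) : ℤ) - 8), rfl⟩, ?_⟩
    intro p hp
    simp only [snaky, Finset.mem_image, Finset.mem_insert, Finset.mem_singleton] at hp
    obtain ⟨q, hq, rfl⟩ := hp
    rcases hq with rfl | rfl | rfl | rfl | rfl | rfl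
    · have h := key 68 (by decide)
      rw [cellOf_add 68 s 0 4 rfl (by simp only [shapeWidth] at hs'; omega)] at h
      convert h using 2 <;> simp <;> ring
    · have h := key 51 (by decide)
      rw [cellOf_add 51 s 0 3 rfl (by simp only [shapeWidth] at hs'; omega)] at h
      convert h using 2 <;> simp <;> ring
    · have h := key 34 (by decide)
      rw [cellOf_add 34 s 0 2 rfl (by simp only [shapeWidth] at hs'; omega)] at h
      convert h using 2 <;> simp <;> ring
    · have h := key 17 (by decide)
      rw [cellOf_add 17 s 0 1 rfl (by simp only [shapeWidth] at hs'; omega)] at h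
      convert h using 2 <;> simp <;> ring
    · have h := key 18 (by decide)
      rw [cellOf_add 18 s 1 1 rfl (by simp only [shapeWidth] at hs'; omega)] at h
      convert h using 2 <;> simp <;> ring
    · have h := key 1 (by decide)
      rw [cellOf_add 1 s 1 0 rfl (by simp only [shapeWidth] at hs'; omega)] at h
      convert h using 2 <;> simp <;> ring
  · refine ⟨_, ⟨(0, -1, -1, 0), by decide, (1 + ((s % 17 : ℕ) : ℤ) - 8, 4 + ((s / 17 : ℕ) : ℤ) - 8), rfl⟩, ?_⟩
    intro p hp
    simp only [snaky, Finset.mem_image, Finset.mem_insert, Finset.mem_singleton] at hp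
    obtain ⟨q, hq, rfl⟩ := hp
    rcases hq with rfl | rfl | rfl | rfl | rfl | rfl
    · have h := key 69 (by decide)
      rw [cellOf_add 69 s 1 4 rfl (by simp only [shapeWidth] at hs'; omega)] at h
      convert h using 2 <;> simp <;> ring
    · have h := key 52 (by decide)
      rw [cellOf_add 52 s 1 3 rfl (by simp only [shapeWidth] at hs'; omega)] at h
      convert h using 2 <;> simp <;> ring
    · have h := key 35 (by decide)
      rw [cellOf_add 35 s 1 2 rfl (by simp only [shapeWidth] at hs'; omega)] at h
      convert h using 2 <;> simp <;> ring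
    · have h := key 18 (by decide)
      rw [cellOf_add 18 s 1 1 rfl (by simp only [shapeWidth] at hs'; omega)] at h
      convert h using 2 <;> simp <;> ring
    · have h := key 17 (by decide)
      rw [cellOf_add 17 s 0 1 rfl (by simp only [shapeWidth] at hs'; omega)] at h
      convert h using 2 <;> simp <;> ring
    · have h := key 0 (by decide)
      rw [cellOf_add 0 s 0 0 rfl (by simp only [shapeWidth] at hs'; omega)] at h
      convert h using 2 <;> simp <;> ring

theorem notMem_of_beq {M c : ℕ} (h : Nat.beq (Nat.land (Nat.shiftLeft 1 c) M) 0 = true) :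
    cellOf c ∉ cells M := by
  rw [cellOf_mem_cells]
  intro hc
  have h0 := Nat.eq_of_beq_eq_true h
  have h1 : (Nat.shiftLeft 1 c &&& M).testBit c = true := by
    rw [Nat.testBit_and, testBit_oneShift, hc]
    simp
  have h2 : (Nat.shiftLeft 1 c &&& M) = 0 := h0
  rw [h2] at h1
  simp at h1

theorem cellOf_mem_bit (c : ℕ) : cellOf c ∈ cells (Nat.shiftLeft 1 c) := by
  rw [cellOf_mem_cells, testBit_oneShift]
  simp

/-- What a proof establishes: `I` and `U` are the intersection and the union of the zones of a
family of proofs, all for Maker's cells `M` and turn budget `k`. -/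
def Holds (k M I U : ℕ) : Prop :=
  ∀ b : Cell, b ∉ cells I → ∃ Z, cells Z ⊆ cells U ∧ b ∉ cells Z ∧ OrP k M Z

/-- Maker completes a copy by claiming `c`. -/
theorem Holds.win {k M c r s : ℕ} (hw : winOK M c r s = true) :
    Holds (k + 1) M (Nat.shiftLeft 1 c) (Nat.shiftLeft 1 c) := by
  intro b hb
  refine ⟨_, subset_rfl, hb, ?_⟩
  intro B hBZ hBM
  have hw' := hw
  simp only [winOK, Bool.and_eq_true] at hw'
  refine ⟨cellOf c, notMem_of_beq hw'.1.2, ?_, Or.inl ?_⟩
  · intro hcB
    exact (Finset.disjoint_left.mp hBZ hcB) (cellOf_mem_bit c)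
  · rw [← cells_lor_bit]
    exact exists_copy hw

/-- Combining two established facts for the same Maker cells. -/
theorem Holds.both {k M I₁ U₁ I₂ U₂ I U : ℕ} (h₁ : Holds k M I₁ U₁) (h₂ : Holds k M I₂ U₂)
    (hI : Nat.land I₁ I₂ = I) (hU : Nat.lor U₁ U₂ = U) : Holds k M I U := by
  subst hI hU
  intro b hb
  by_cases hb1 : b ∈ cells I₁
  · have hb2 : b ∉ cells I₂ := fun hb2 => hb (mem_cells_land.2 ⟨hb1, hb2⟩)
    obtain ⟨Z, hZ1, hZ2, hZ3⟩ := h₂ b hb2
    exact ⟨Z, fun x hx => mem_cells_lor.2 (Or.inr (hZ1 hx)), hZ2, hZ3⟩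
  · obtain ⟨Z, hZ1, hZ2, hZ3⟩ := h₁ b hb1
    exact ⟨Z, fun x hx => mem_cells_lor.2 (Or.inl (hZ1 hx)), hZ2, hZ3⟩

/-- A Maker move on top of an established fact for the larger cell set. -/
theorem Holds.play {k M M' c I U Z : ℕ} (hc : Nat.beq (Nat.land (Nat.shiftLeft 1 c) M) 0 = true)
    (hM : Nat.lor M (Nat.shiftLeft 1 c) = M') (h : Holds k M' I U)
    (hi : Nat.beq (Nat.land I M') I = true) (hZ : Nat.lor U (Nat.shiftLeft 1 c) = Z) :
    Holds (k + 1) M Z Z := by
  subst hM hZ
  intro b hb
  refine ⟨_, subset_rfl, hb, ?_⟩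
  intro B hBZ hBM
  refine ⟨cellOf c, notMem_of_beq hc, ?_, Or.inr ?_⟩
  · intro hcB
    exact (Finset.disjoint_left.mp hBZ hcB) (mem_cells_lor.2 (Or.inr (cellOf_mem_bit c)))
  · rw [← cells_lor_bit]
    intro b' hb1 hb2
    have hi' := Nat.eq_of_beq_eq_true hi
    have hb3 : b' ∉ cells I := by
      intro h3
      rw [← hi'] at h3
      exact hb1 (mem_cells_land.1 h3).2
    obtain ⟨Z, hZ1, hZ2, hZ3⟩ := h b' hb3
    apply hZ3
    · rw [Finset.disjoint_insert_left]
      refine ⟨hZ2, ?_⟩
      exact Finset.disjoint_of_subset_right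
        (fun x hx => mem_cells_lor.2 (Or.inl (hZ1 hx))) hBZ
    · rw [Finset.disjoint_insert_left]
      refine ⟨hb1, ?_⟩
      rw [cells_lor_bit, Finset.disjoint_insert_right]
      refine ⟨?_, hBM⟩
      intro hcB
      exact (Finset.disjoint_left.mp hBZ hcB)
        (mem_cells_lor.2 (Or.inr (cellOf_mem_bit c)))

/-- Evaluation of a proof stream (a number read in base 4096, least significant digit first)
with Maker's cells `M` and turn budget `k`. The digit tag (low two bits) says: `0` combine the next
two proofs; `1` Maker claims a cell and a proof for the larger cell set follows; otherwise Maker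
claims a cell, completing a copy of orientation and shift given by the next digit.
Returns the intersection and union of the zones and the rest of the stream. -/
def evS : ℕ → ℕ → ℕ → ℕ → Option (ℕ × ℕ × ℕ)
  | 0, _, _, _ => none
  | f + 1, s, M, k =>
    match Nat.land (Nat.land s 4095) 3 with
    | 0 =>
      match evS f (Nat.shiftRight s 12) M k with
      | none => none
      | some (i₁, u₁, s₁) =>
        match evS f s₁ M k with
        | none => none
        | some (i₂, u₂, s₂) => some (Nat.land i₁ i₂, Nat.lor u₁ u₂, s₂)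
    | 1 =>
      match k with
      | 0 => none
      | k' + 1 =>
        let c := Nat.shiftRight (Nat.land s 4095) 2
        let M' := Nat.lor M (Nat.shiftLeft 1 c)
        match Nat.beq (Nat.land (Nat.shiftLeft 1 c) M) 0 with
        | false => none
        | true =>
          match evS f (Nat.shiftRight s 12) M' k' with
          | none => none
          | some (i, u, s₁) =>
            match Nat.beq (Nat.land i M') i with
            | false => none
            | true =>
              let z := Nat.lor u (Nat.shiftLeft 1 c)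
              some (z, z, s₁)
    | _ =>
      match k with
      | 0 => none
      | _ + 1 =>
        let c := Nat.shiftRight (Nat.land s 4095) 2
        let d := Nat.land (Nat.shiftRight s 12) 4095
        match winOK M c (Nat.land d 7) (Nat.shiftRight d 3) with
        | false => none
        | true =>
          let z := Nat.shiftLeft 1 c
          some (z, z, Nat.shiftRight s 24)

theorem evS_sound : ∀ (f s M k I U r : ℕ), evS f s M k = some (I, U, r) → Holds k M I U := by
  intro f
  induction f with
  | zero => intro s M k I U r h; simp [evS] at h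
  | succ f ih =>
    intro s M k I U r h
    simp only [evS] at h
    split at h
    · -- both
      split at h
      · simp at h
      · rename_i i₁ u₁ s₁ h₁
        split at h
        · simp at h
        · rename_i i₂ u₂ s₂ h₂
          simp only [Option.some.injEq, Prod.mk.injEq] at h
          exact Holds.both (ih _ _ _ _ _ _ h₁) (ih _ _ _ _ _ _ h₂) h.1 h.2.1
    · -- play
      cases k with
      | zero => simp at h
      | succ k' =>
        simp only at h
        split at h
        · simp at h
        · rename_i hc
          split at h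
          · simp at h
          · rename_i i u s₁ h₁
            split at h
            · simp at h
            · rename_i hi
              simp only [Option.some.injEq, Prod.mk.injEq] at h
              obtain ⟨h1, h2, _⟩ := h
              subst h1
              subst h2
              exact Holds.play hc rfl (ih _ _ _ _ _ _ h₁) hi rfl
    · -- win
      cases k with
      | zero => simp at h
      | succ k' =>
        simp only at h
        split at h
        · simp at h
        · rename_i hw
          simp only [Option.some.injEq, Prod.mk.injEq] at h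
          obtain ⟨h1, h2, _⟩ := h
          subst h1
          subst h2
          exact Holds.win hw

/-- Boolean form of the evaluation check, convenient for the kernel. -/
def evCheck (s M k I U : ℕ) : Bool :=
  match evS 200 s M k with
  | none => false
  | some (i, u, _) => Nat.beq i I && Nat.beq u U

theorem evCheck_sound (s M k I U : ℕ) (h : evCheck s M k I U = true) : Holds k M I U := by
  unfold evCheck at h
  cases he : evS 200 s M k with
  | none => simp [he] at h
  | some p =>
    obtain ⟨i, u, r⟩ := p
    simp only [he, Bool.and_eq_true] at h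
    have h1 := Nat.eq_of_beq_eq_true h.1
    have h2 := Nat.eq_of_beq_eq_true h.2
    subst h1 h2
    exact evS_sound _ _ _ _ _ _ _ he

/-! ### Symmetry -/

/-- The symmetries used for the reduction of Breaker's first reply. -/
def swapC (p : Cell) : Cell := (p.2, p.1)

def negX (p : Cell) : Cell := (-p.1, p.2)

theorem swapC_swapC (p : Cell) : swapC (swapC p) = p := rfl

theorem negX_negX (p : Cell) : negX (negX p) = p := by simp [negX]

theorem isCopy_swap {A : Finset Cell} (h : IsCopy A) : IsCopy (A.image swapC) := by
  obtain ⟨R, hR, t, rfl⟩ := h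
  refine ⟨(R.2.2.1, R.2.2.2, R.1, R.2.1), ?_, (t.2, t.1), ?_⟩
  · revert R
    decide
  · rw [Finset.image_image]
    rfl

theorem isCopy_negX {A : Finset Cell} (h : IsCopy A) : IsCopy (A.image negX) := by
  obtain ⟨R, hR, t, rfl⟩ := h
  refine ⟨(-R.1, -R.2.1, R.2.2.1, R.2.2.2), ?_, (-t.1, t.2), ?_⟩
  · revert R
    decide
  · rw [Finset.image_image]
    apply Finset.image_congr
    intro p _
    simp only [Function.comp, negX, Prod.mk.injEq]
    constructor
    · ring
    · trivial

theorem sym_general (σ : Cell → Cell) (hσ : ∀ p, σ (σ p) = p)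
    (hc : ∀ {A : Finset Cell}, IsCopy A → IsCopy (A.image σ)) :
    ∀ (n : ℕ) (M B : Finset Cell), MakerWinsIn n M B → MakerWinsIn n (M.image σ) (B.image σ) := by
  have hinj : Function.Injective σ := fun a b h => by rw [← hσ a, ← hσ b, h]
  intro n
  induction n with
  | zero => intro M B h; exact h
  | succ n ih =>
    intro M B h
    obtain ⟨c, hcM, hcB, h⟩ := h
    refine ⟨σ c, ?_, ?_, ?_⟩
    · intro h'
      obtain ⟨x, hx, hxc⟩ := Finset.mem_image.1 h'
      exact hcM (hinj hxc ▸ hx)
    · intro h'
      obtain ⟨x, hx, hxc⟩ := Finset.mem_image.1 h'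
      exact hcB (hinj hxc ▸ hx)
    · rw [← Finset.image_insert]
      rcases h with ⟨A, hA, hAM⟩ | h
      · exact Or.inl ⟨A.image σ, hc hA, Finset.image_subset_image hAM⟩
      · right
        intro b hb1 hb2
        have hb1' : σ b ∉ insert c M := fun hh => hb1 (by
          rw [Finset.mem_image]
          exact ⟨σ b, hh, hσ b⟩)
        have hb2' : σ b ∉ B := fun hh => hb2 (by
          rw [Finset.mem_image]
          exact ⟨σ b, hh, hσ b⟩)
        have := ih _ _ (h (σ b) hb1' hb2')
        have e : (insert (σ b) B).image σ = insert b (B.image σ) := by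
          rw [Finset.image_insert, hσ]
        rwa [e] at this

/-- Reduction of Breaker's first reply to the cone `0 ≤ y ≤ x`, for a symmetric family of replies. -/
theorem first_reply_reduction (K : ℕ) (S : Cell → Prop)
    (hSs : ∀ p, S p → S (swapC p)) (hSn : ∀ p, S p → S (negX p))
    (hcone : ∀ x y : ℤ, 0 ≤ y → y ≤ x → S (x, y) →
      MakerWinsIn K {((0 : ℤ), (0 : ℤ))} {(x, y)}) :
    ∀ b : Cell, S b → MakerWinsIn K {((0 : ℤ), (0 : ℤ))} {b} := by
  have hS := sym_general swapC swapC_swapC isCopy_swap
  have hN := sym_general negX negX_negX isCopy_negX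
  have step1 : ∀ x y : ℤ, 0 ≤ x → 0 ≤ y → S (x, y) →
      MakerWinsIn K {((0 : ℤ), (0 : ℤ))} {(x, y)} := by
    intro x y hx hy hne
    rcases le_total y x with h | h
    · exact hcone x y hy h hne
    · have := hS K _ _ (hcone y x hx h (hSs _ hne))
      simpa [swapC] using this
  have step2 : ∀ x y : ℤ, 0 ≤ y → S (x, y) →
      MakerWinsIn K {((0 : ℤ), (0 : ℤ))} {(x, y)} := by
    intro x y hy hne
    rcases le_total 0 x with h | h
    · exact step1 x y h hy hne
    · have := hN K _ _ (step1 (-x) y (by omega) hy (hSn _ hne))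
      simpa [negX] using this
  rintro ⟨x, y⟩ hne
  rcases le_total 0 y with h | h
  · exact step2 x y h hne
  · -- negate y by conjugating negX with the swap
    have hne' : S (-x, -y) := by
      have h1 := hSn _ (hSs _ (hSn _ (hSs _ hne)))
      simpa [swapC, negX] using h1
    have h1 := step2 (-x) (-y) (by omega) hne'
    have h2 := hN K _ _ h1
    have h3 := hS K _ _ h2
    have h4 := hN K _ _ h3
    have h5 := hS K _ _ h4
    simpa [swapC, negX] using h5

/-- Bit index `i` is in the cone `0 ≤ y ≤ x` with `x ≥ xmin`. -/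
def inCone (xmin i : ℕ) : Bool :=
  Nat.ble 8 (i / 17) && Nat.ble (i / 17) (i % 17) && Nat.ble (8 + xmin) (i % 17)

/-- No bit of `I` lies in the cone. -/
def coneFree (xmin I : ℕ) : Bool :=
  Nat.blt I (Nat.shiftLeft 1 289) && (List.range 289).all fun i => !(I.testBit i && inCone xmin i)

theorem cells_origin : cells (Nat.shiftLeft 1 144) = {((0 : ℤ), (0 : ℤ))} := by
  ext p
  rw [mem_cells, Finset.mem_singleton]
  constructor
  · rintro ⟨i, hi, rfl⟩
    rw [testBit_oneShift] at hi
    simp only [decide_eq_true_eq] at hi
    subst hi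
    rfl
  · rintro rfl
    exact ⟨144, by rw [testBit_oneShift]; simp, rfl⟩

/-- From the combined fact and the cone check: the replies in the cone with `x ≥ xmin`. -/
theorem cone_of_holds (K I U xmin : ℕ) (h : Holds K (Nat.shiftLeft 1 144) I U)
    (hI : coneFree xmin I = true) :
    ∀ x y : ℤ, 0 ≤ y → y ≤ x → (xmin : ℤ) ≤ x → (x, y) ≠ (0, 0) →
      MakerWinsIn K {((0 : ℤ), (0 : ℤ))} {(x, y)} := by
  intro x y hy hyx hx hne
  have hb : (x, y) ∉ cells I := by
    intro hmem
    obtain ⟨i, hi, hc⟩ := mem_cells.1 hmem
    simp only [coneFree, Bool.and_eq_true, List.all_eq_true, List.mem_range] at hI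
    obtain ⟨hlt, hall⟩ := hI
    have hlt' : I < 2 ^ 289 := by
      have h1 : I < Nat.shiftLeft 1 289 := Nat.le_of_ble_eq_true hlt
      have h2 : Nat.shiftLeft 1 289 = 2 ^ 289 := Nat.one_shiftLeft 289
      rwa [h2] at h1
    have hi289 : i < 289 := by
      by_contra hge
      have : I < 2 ^ i := lt_of_lt_of_le hlt' (Nat.pow_le_pow_right (by norm_num) (by omega))
      have h0 := Nat.testBit_lt_two_pow this
      rw [h0] at hi
      exact absurd hi (by simp)
    have h1 := hall i hi289
    rw [hi] at h1
    simp only [Bool.true_and, Bool.not_eq_true', inCone, Bool.and_eq_false_iff] at h1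
    simp only [cellOf, Prod.mk.injEq] at hc
    obtain ⟨hc1, hc2⟩ := hc
    rcases h1 with (h1 | h1) | h1
    · have : ¬ (8 ≤ i / 17) := fun hh => by
        rw [Nat.ble_eq_true_of_le hh] at h1
        exact absurd h1 (by simp)
      omega
    · have : ¬ (i / 17 ≤ i % 17) := fun hh => by
        rw [Nat.ble_eq_true_of_le hh] at h1
        exact absurd h1 (by simp)
      omega
    · have : ¬ (8 + xmin ≤ i % 17) := fun hh => by
        rw [Nat.ble_eq_true_of_le hh] at h1
        exact absurd h1 (by simp)
      omega
  obtain ⟨Z, _, hZ2, hZ3⟩ := h _ hb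
  have := hZ3 {(x, y)} (by simpa using hZ2) (by
    rw [cells_origin]
    simpa using hne)
  rwa [cells_origin] at this

/-- The full game: Maker's first move at the origin plus all replies. -/
theorem win_of_holds (K I U : ℕ) (h : Holds K (Nat.shiftLeft 1 144) I U)
    (hI : coneFree 1 I = true) : MakerWinsIn (K + 1) ∅ ∅ := by
  have hcone := cone_of_holds K I U 1 h hI
  have hall := first_reply_reduction K (fun b => b ≠ ((0 : ℤ), (0 : ℤ)))
    (by
      rintro ⟨x, y⟩ hp h0
      apply hp
      simp only [swapC, Prod.mk.injEq] at h0 ⊢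
      exact ⟨h0.2, h0.1⟩)
    (by
      rintro ⟨x, y⟩ hp h0
      apply hp
      simp only [negX, Prod.mk.injEq] at h0 ⊢
      exact ⟨by omega, h0.2⟩)
    (by
      intro x y hy hyx hne
      have hx : (0 : ℤ) < x := by
        rcases lt_or_eq_of_le (le_trans hy hyx) with h1 | h1
        · exact h1
        · exfalso
          apply hne
          simp only [Prod.mk.injEq]
          omega
      exact hcone x y hy hyx (by simp only [Nat.cast_one]; omega) hne)
  refine ⟨(0, 0), by simp, by simp, Or.inr ?_⟩
  intro b hb _
  have : insert ((0 : ℤ), (0 : ℤ)) (∅ : Finset Cell) = {((0 : ℤ), (0 : ℤ))} := rfl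
  rw [this] at hb ⊢
  have hne : b ≠ (0, 0) := by simpa using hb
  have h' := hall b hne
  have h2 : insert b (∅ : Finset Cell) = {b} := rfl
  rw [h2]
  exact h'

/-- The partial form: replies at king distance at least two from Maker's first cell. -/
theorem far_replies_of_holds (K I U : ℕ) (h : Holds K (Nat.shiftLeft 1 144) I U)
    (hI : coneFree 2 I = true) :
    ∀ b : Cell, (2 ≤ |b.1| ∨ 2 ≤ |b.2|) → MakerWinsIn K {((0 : ℤ), (0 : ℤ))} {b} := by
  have hcone := cone_of_holds K I U 2 h hI
  refine first_reply_reduction K (fun b => 2 ≤ |b.1| ∨ 2 ≤ |b.2|) ?_ ?_ ?_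
  · rintro ⟨x, y⟩ hp
    simp only [swapC] at hp ⊢
    tauto
  · rintro ⟨x, y⟩ hp
    simpa [negX] using hp
  · intro x y hy hyx hp
    have hx : (2 : ℤ) ≤ x := by
      have h1 : |x| = x := abs_of_nonneg (le_trans hy hyx)
      have h2 : |y| = y := abs_of_nonneg hy
      simp only [h1, h2] at hp
      omega
    apply hcone x y hy hyx (by simpa using hx)
    intro h0
    simp only [Prod.mk.injEq] at h0
    omega

end Vale.Agent.P062
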